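import Mathlib

/-! Certificates for the multi-level selector process. -/

namespace Vale.Agent.P034

open Finset

variable {X : Type} [Fintype X] [DecidableEq X]

def Val (μ : X → ℝ) (A : Finset X) (m : ℕ) (δ ε : ℝ) : Prop :=
  0 ≤ ε ∧ (∀ x, ε < μ x → x ∈ A) ∧
    (1 - δ) * ∑ x, min (μ x) ε + m * ε ≤ ∑ x ∈ A, min (μ x) ε

noncomputable def top (μ : X → ℝ) (ε : ℝ) : Finset X := univ.filter fun x => ε < μ x

omit [DecidableEq X] in
theorem mem_top {μ : X → ℝ} {ε : ℝ} {x : X} : x ∈ top μ ε ↔ ε < μ x := by simp [top]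

theorem Val.improve {μ : X → ℝ} {A : Finset X} {m : ℕ} {δ : ℝ} (n : ℕ) :
    ∀ ε, (top μ ε).card = n → Val μ A m δ ε →
      ∃ ε', Val μ A m δ ε' ∧ δ * (top μ ε').card ≤ m := by
  induction n using Nat.strong_induction_on with
  | _ n ih =>
    intro ε hn h
    by_cases hs : δ * (top μ ε).card ≤ m
    · exact ⟨ε, h, hs⟩
    push Not at hs
    have hne : (top μ ε).Nonempty := by
      rw [nonempty_iff_ne_empty]
      intro h0
      rw [h0] at hs
      simp only [card_empty, Nat.cast_zero, mul_zero] at hs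
      exact absurd hs (not_lt.2 (Nat.cast_nonneg m))
    obtain ⟨x0, hx0, hmin⟩ := (top μ ε).exists_min_image μ hne
    have hlt : ε < μ x0 := mem_top.1 hx0
    have e1 : ∀ x, min (μ x) (μ x0) = min (μ x) ε + if x ∈ top μ ε then μ x0 - ε else 0 := by
      intro x
      split_ifs with hx
      · rw [min_eq_right (hmin x hx), min_eq_right (mem_top.1 hx).le]; ring
      · have : μ x ≤ ε := not_lt.1 fun h => hx (mem_top.2 h)
        rw [min_eq_left this, min_eq_left (by linarith), add_zero]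
    have hsub : top μ ε ⊆ A := fun x hx => h.2.1 x (mem_top.1 hx)
    refine ih (top μ (μ x0)).card ?_ (μ x0) rfl ⟨by linarith [h.1], fun x hx => h.2.1 x (by linarith), ?_⟩
    · rw [← hn]
      refine card_lt_card ⟨fun x hx => mem_top.2 (by linarith [mem_top.1 hx]), fun h' => ?_⟩
      exact lt_irrefl _ (mem_top.1 (h' hx0))
    · simp only [e1, sum_add_distrib, sum_ite_mem, univ_inter, inter_eq_right.2 hsub, sum_const,
        nsmul_eq_mul]
      have := h.2.2
      nlinarith [mul_le_mul_of_nonneg_right hs.le (sub_nonneg.2 hlt.le)]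

theorem Val.good {μ : X → ℝ} {A : Finset X} {δ ε : ℝ} (hδ : 0 ≤ δ) (h : Val μ A 0 δ ε) :
    ∑ x ∈ Aᶜ, μ x ≤ δ * ∑ x, μ x := by
  have e1 : ∑ x ∈ Aᶜ, μ x = ∑ x ∈ Aᶜ, min (μ x) ε := sum_congr rfl fun x hx =>
    (min_eq_left (not_lt.1 fun h' => (mem_compl.1 hx) (h.2.1 x h'))).symm
  have e2 := sum_add_sum_compl A fun x => min (μ x) ε
  have e3 : ∑ x, min (μ x) ε ≤ ∑ x, μ x := sum_le_sum fun x _ => min_le_left _ _
  have := h.2.2
  simp only [Nat.cast_zero, zero_mul, add_zero] at this
  nlinarith [mul_le_mul_of_nonneg_left e3 hδ]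

theorem Val.step {μ : X → ℝ} (hμ : ∀ x, 0 ≤ μ x) {A A' : Finset X} {m : ℕ} {δ ε : ℝ} {x : X}
    (h : Val μ A (m + 1) δ ε) (h1 : ∀ y ∈ A, y ≠ x → y ∈ A') (h2 : ε < μ x → x ∈ A') :
    Val μ A' m δ ε := by
  refine ⟨h.1, fun y hy => ?_, ?_⟩
  · by_cases hyx : y = x
    · subst hyx; exact h2 hy
    · exact h1 y (h.2.1 y hy) hyx
  · have e1 : ∑ y ∈ A.erase x, min (μ y) ε ≤ ∑ y ∈ A', min (μ y) ε :=
      sum_le_sum_of_subset_of_nonneg (fun y hy => h1 y (mem_of_mem_erase hy) (ne_of_mem_erase hy))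
        fun y _ _ => le_min (hμ y) h.1
    have e2 : ∑ y ∈ A, min (μ y) ε ≤ ∑ y ∈ A.erase x, min (μ y) ε + ε := by
      by_cases hx : x ∈ A
      · rw [← sum_erase_add _ _ hx]
        linarith [min_le_right (μ x) ε]
      · rw [erase_eq_of_notMem hx]
        linarith [h.1]
    have := h.2.2
    push_cast at this
    linarith

variable {K : ℕ}

/-- The tolerated uncovered fraction at level `k`. -/
noncomputable def dl (k : ℕ) : ℝ := (1 / 2) ^ (k + 1)

theorem dl_pos (k : ℕ) : 0 < dl k := by unfold dl; positivity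

def Cert (F : Set (Finset X)) (μ : Finset X → X → ℝ) (A : Fin K → Finset X) (m : Fin K → ℕ)
    (c : Finset X × (Fin K → ℝ)) : Prop :=
  c.1 ∈ F ∧ ∀ k, Val (μ c.1) (A k) (m k) (dl k) (c.2 k) ∧ dl k * (top (μ c.1) (c.2 k)).card ≤ m k

open Classical in
/-- The candidate sets read off by the decoder. -/
noncomputable def Sd (F : Set (Finset X)) (μ : Finset X → X → ℝ) (A : Fin K → Finset X)
    (m : Fin K → ℕ) (k : Fin K) : Finset X :=
  if h : ∃ c, Cert F μ A m c then top (μ h.choose.1) (h.choose.2 k) else ∅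

omit [DecidableEq X] in
theorem Sd_card (F : Set (Finset X)) (μ : Finset X → X → ℝ) (A : Fin K → Finset X)
    (m : Fin K → ℕ) (k : Fin K) : dl k * (Sd F μ A m k).card ≤ m k := by
  unfold Sd
  split_ifs with h
  · exact (h.choose_spec.2 k).2
  · simp

/-- Elements of level at most `k`. -/
def lev (l : X → ℕ) (k : ℕ) : Finset X := univ.filter fun x => l x ≤ k

theorem exists_levels (F : Set (Finset X)) (μ : Finset X → X → ℝ) (hμ : ∀ H x, 0 ≤ μ H x)
    (hsupp : ∀ H x, 0 < μ H x → x ∈ H) (A : Fin K → Finset X) {H : Finset X} (hH : H ∈ F)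
    (hbad : ¬ ∃ H' ∈ F, ∀ k, ∑ x ∈ (A k)ᶜ, μ H' x ≤ dl k * ∑ x, μ H' x) :
    ∃ l : X → ℕ, (∀ x, l x < K → x ∈ H) ∧ (∃ x, l x < K) ∧ ∀ (k : Fin K) (x : X), l x = k →
      x ∉ A k ∧ x ∈ Sd F μ (fun k => A k ∪ lev l k) (fun k => (lev l k).card) k := by
  classical
  let P : (X → ℕ) → Prop := fun l => (∀ x, l x < K → x ∈ H) ∧
    ∃ H' ∈ F, ∀ k : Fin K, ∃ ε, Val (μ H') (A k ∪ lev l k) (lev l k).card (dl k) ε
  have hex : ∃ n, ∃ l, P l ∧ ∑ x, (K - l x) = n := by
    refine ⟨_, fun x => if x ∈ H then 0 else K, ⟨fun x hx => ?_, H, hH, fun k => ⟨0, le_rfl,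
      fun x hx => ?_, ?_⟩⟩, rfl⟩
    · by_contra h
      simp [h] at hx
    · simp [lev, hsupp H x hx]
    · simp [min_eq_right (hμ H _)]
  obtain ⟨l, ⟨hl1, H', hH', hl2⟩, hl3⟩ := Nat.find_spec hex
  have hc : ∃ c, Cert F μ (fun k => A k ∪ lev l k) (fun k => (lev l k).card) c := by
    choose ε hε using fun k => (hl2 k).elim fun ε h => Val.improve _ ε rfl h
    exact ⟨(H', ε), hH', hε⟩
  refine ⟨l, hl1, ?_, fun k x hx => ?_⟩
  · by_contra h0
    push Not at h0
    refine hbad ⟨H', hH', fun k => ?_⟩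
    obtain ⟨ε, h⟩ := hl2 k
    have : lev l k = ∅ := filter_eq_empty_iff.2 fun x _ => by have := h0 x; have := k.2; omega
    rw [this, union_empty, card_empty] at h
    exact h.good (dl_pos _).le
  · by_contra hcon
    simp only [Sd, dif_pos hc] at hcon
    obtain ⟨hc1, hc2⟩ := hc.choose_spec
    generalize hc.choose = c at hcon hc1 hc2
    have hk := k.2
    refine Nat.find_min hex (m := ∑ y, (K - Function.update l x (k + 1) y)) ?_
      ⟨Function.update l x (k + 1), ⟨fun y hy => ?_, c.1, hc1, fun j => ⟨c.2 j, ?_⟩⟩, rfl⟩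
    · rw [← hl3]
      refine sum_lt_sum (fun y _ => ?_) ⟨x, mem_univ _, by simp; omega⟩
      by_cases hy : y = x
      · subst hy; simp; omega
      · simp [Function.update_of_ne hy]
    · by_cases hyx : y = x
      · subst hyx; exact hl1 y (by omega)
      · rw [Function.update_of_ne hyx] at hy; exact hl1 y hy
    · by_cases hj : j = k
      · subst hj
        have e1 : lev (Function.update l x (j + 1)) j = (lev l j).erase x := by
          ext y
          by_cases hyx : y = x
          · subst hyx; simp [lev]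
          · simp [lev, hyx]
        have e2 : x ∈ lev l j := by simp [lev, hx]
        have h := (hc2 j).1
        simp only at h
        rw [← card_erase_add_one e2] at h
        rw [e1]
        refine h.step (hμ _) (x := x) (fun y hy hyx => ?_) fun hlt => ?_
        · simp only [mem_union, mem_erase] at hy ⊢
          tauto
        · by_contra h3
          exact hcon ⟨fun h4 => h3 (mem_union_left _ h4), mem_top.2 hlt⟩
      · have e1 : lev (Function.update l x (k + 1)) j = lev l j := by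
          have : j.val ≠ k.val := fun h => hj (Fin.ext h)
          ext y
          by_cases hyx : y = x
          · subst hyx; simp [lev]; omega
          · simp [lev, hyx]
        rw [e1]
        exact (hc2 j).1

end Vale.Agent.P034
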