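import Vale.Agent.P034.Cert

/-! The counting estimate. -/

namespace Vale.Agent.P034

open Finset

variable {X : Type} [Fintype X] [DecidableEq X] {K : ℕ}

theorem sum_dl_le (K : ℕ) : ∑ k : Fin K, dl k ≤ 1 := by
  have : ∀ n, ∑ k ∈ range n, dl k = 1 - (1 / 2) ^ n := fun n => by
    induction n with
    | zero => simp
    | succ n ih => rw [sum_range_succ, ih, dl]; ring
  rw [Fin.sum_univ_eq_sum_range, this]
  have : (0 : ℝ) < (1 / 2) ^ K := by positivity
  linarith

theorem choose_mul_pow_le (s u : ℕ) {y : ℝ} (hy : 0 ≤ y) :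
    (s.choose u : ℝ) * y ^ u ≤ Real.exp (s * y) := by
  have h1 : (s.choose u : ℝ) * y ^ u ≤ (y + 1) ^ s := by
    by_cases h : u ≤ s
    · rw [add_pow]
      have := single_le_sum (f := fun m => y ^ m * 1 ^ (s - m) * (s.choose m : ℝ))
        (fun m _ => by positivity) (mem_range.2 (Nat.lt_succ_of_le h))
      simpa [mul_comm] using this
    · rw [Nat.choose_eq_zero_of_lt (by omega)]
      simp only [Nat.cast_zero, zero_mul]
      positivity
  rw [Real.exp_nat_mul]
  exact h1.trans (pow_le_pow_left₀ (by positivity) (Real.add_one_le_exp y) s)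

theorem fiber_bound (s u : Fin K → ℕ) (hs : ∀ k : Fin K, dl k * s k ≤ ∑ j, (u j : ℝ)) :
    ∏ k : Fin K, ((s k).choose (u k) : ℝ) * ((1 / 256) ^ (k.val + 1)) ^ u k ≤
      ∏ k : Fin K, (3 * (1 / 64 : ℝ) ^ (k.val + 1)) ^ u k := by
  have h1 : ∀ k : Fin K, ((s k).choose (u k) : ℝ) * ((1 / 256) ^ (k.val + 1)) ^ u k ≤
      Real.exp (dl k * ∑ j, (u j : ℝ)) * ((1 / 64 : ℝ) ^ (k.val + 1)) ^ u k := by
    intro k
    have e1 : ((1 / 256 : ℝ) ^ (k.val + 1)) = (dl k * dl k) * (1 / 64) ^ (k.val + 1) := by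
      rw [dl, ← mul_pow, ← mul_pow]; norm_num
    rw [e1, mul_pow, ← mul_assoc]
    refine mul_le_mul_of_nonneg_right ?_ (by positivity)
    refine (choose_mul_pow_le _ _ (mul_pos (dl_pos k) (dl_pos k)).le).trans
      (Real.exp_le_exp.2 ?_)
    nlinarith [mul_le_mul_of_nonneg_left (hs k) (dl_pos k).le]
  refine (prod_le_prod (fun k _ => by positivity) fun k _ => h1 k).trans ?_
  simp only [prod_mul_distrib, mul_pow]
  refine mul_le_mul_of_nonneg_right ?_ (by positivity)
  rw [← Real.exp_sum, ← sum_mul, prod_pow_eq_pow_sum]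
  have h2 : (∑ k : Fin K, dl k) * ∑ j, (u j : ℝ) ≤ (∑ j, u j : ℕ) * 1 := by
    push_cast
    have : (0 : ℝ) ≤ ∑ j, (u j : ℝ) := by positivity
    nlinarith [sum_dl_le K]
  refine (Real.exp_le_exp.2 h2).trans ?_
  rw [Real.exp_nat_mul]
  exact pow_le_pow_left₀ (Real.exp_pos _).le (by linarith [Real.exp_one_lt_d9]) _

theorem profile_sum (n : ℕ) :
    ∑ u ∈ (Fintype.piFinset fun _ : Fin K => range (n + 1)).erase 0,
      ∏ k : Fin K, (3 * (1 / 64 : ℝ) ^ (k.val + 1)) ^ u k ≤ 1 / 9 := by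
  have h0 : (0 : Fin K → ℕ) ∈ Fintype.piFinset fun _ : Fin K => range (n + 1) := by simp
  have h1 := add_sum_erase _ (fun u : Fin K → ℕ =>
    ∏ k : Fin K, (3 * (1 / 64 : ℝ) ^ (k.val + 1)) ^ u k) h0
  rw [← prod_univ_sum] at h1
  simp only [Pi.zero_apply, pow_zero, prod_const_one] at h1
  have h2 : ∀ k : Fin K, ∑ j ∈ range (n + 1), (3 * (1 / 64 : ℝ) ^ (k.val + 1)) ^ j ≤
      Real.exp (2 * (3 * (1 / 64 : ℝ) ^ (k.val + 1))) := by
    intro k
    have ha : 3 * (1 / 64 : ℝ) ^ (k.val + 1) ≤ 1 / 2 := by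
      have : (1 / 64 : ℝ) ^ (k.val + 1) ≤ (1 / 64) ^ 1 :=
        pow_le_pow_of_le_one (by norm_num) (by norm_num) (by omega)
      linarith
    have ha0 : 0 ≤ 3 * (1 / 64 : ℝ) ^ (k.val + 1) := by positivity
    generalize 3 * (1 / 64 : ℝ) ^ (k.val + 1) = a at *
    have : ∀ m, ∑ j ∈ range (m + 1), a ^ j ≤ 1 + 2 * a - 2 * (a ^ m * a) := fun m => by
      induction m with
      | zero => simp
      | succ m ih =>
        rw [sum_range_succ, pow_succ]
        have : 0 ≤ a ^ m * a := by positivity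
        nlinarith
    have h3 : 0 ≤ a ^ n * a := by positivity
    linarith [this n, Real.add_one_le_exp (2 * a)]
  have h3 := prod_le_prod (s := univ) (fun k _ => by positivity) fun k _ => h2 k
  rw [← Real.exp_sum] at h3
  have h4 : ∑ k : Fin K, 2 * (3 * (1 / 64 : ℝ) ^ (k.val + 1)) ≤ 1 / 10 := by
    have : ∀ n, ∑ k ∈ range n, 2 * (3 * (1 / 64 : ℝ) ^ (k + 1)) = 6 / 63 * (1 - (1 / 64) ^ n) :=
      fun n => by
        induction n with
        | zero => simp
        | succ n ih => rw [sum_range_succ, ih]; ring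
    rw [Fin.sum_univ_eq_sum_range (fun k => 2 * (3 * (1 / 64 : ℝ) ^ (k + 1))), this]
    have : (0 : ℝ) < (1 / 64) ^ K := by positivity
    linarith
  have h5 : Real.exp (1 / 10) ≤ 10 / 9 := by
    have h6 := Real.add_one_le_exp (-(1 / 10))
    have h7 : Real.exp (1 / 10) * Real.exp (-(1 / 10)) = 1 := by rw [← Real.exp_add]; simp
    nlinarith [Real.exp_pos (1 / 10)]
  linarith [Real.exp_le_exp.2 h4]

/-- Partial sums of a profile. -/
def mOf (u : Fin K → ℕ) (k : Fin K) : ℕ := ∑ j ∈ Iic k, u j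

open Classical in
/-- The families of sets compatible with the decoder. -/
noncomputable def Rz (F : Set (Finset X)) (μ : Finset X → X → ℝ) (A : Fin K → Finset X) :
    Finset (Fin K → Finset X) :=
  univ.filter fun U => (∃ k, (U k).Nonempty) ∧ ∀ k, U k ⊆ Sd F μ A (mOf fun j => (U j).card) k

theorem count_bound (F : Set (Finset X)) (μ : Finset X → X → ℝ) (A : Fin K → Finset X) :
    ∑ U ∈ Rz F μ A, ∏ k : Fin K, ((1 / 256 : ℝ) ^ (k.val + 1)) ^ (U k).card ≤ 1 / 9 := by
  classical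
  refine le_trans ?_ (profile_sum (K := K) (Fintype.card X))
  rw [← sum_fiberwise_of_maps_to (g := fun U j => (U j).card)
    (t := (Fintype.piFinset fun _ : Fin K => range (Fintype.card X + 1)).erase 0)]
  · refine sum_le_sum fun u _ => ?_
    refine le_trans ?_ (fiber_bound (fun k => (Sd F μ A (mOf u) k).card) u fun k => ?_)
    · have e : ∀ k : Fin K, (((Sd F μ A (mOf u) k).card).choose (u k) : ℝ) *
          ((1 / 256) ^ (k.val + 1)) ^ u k = ∑ B ∈ powersetCard (u k) (Sd F μ A (mOf u) k),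
            ((1 / 256 : ℝ) ^ (k.val + 1)) ^ B.card := fun k => by
        rw [sum_congr rfl fun B hB => by rw [(mem_powersetCard.1 hB).2], sum_const,
          card_powersetCard, nsmul_eq_mul]
      simp only [e]
      rw [prod_univ_sum]
      refine sum_le_sum_of_subset_of_nonneg (fun U hU => ?_) fun _ _ _ => by positivity
      simp only [mem_filter, Rz, mem_univ, true_and] at hU
      obtain ⟨⟨-, h1⟩, rfl⟩ := hU
      exact Fintype.mem_piFinset.2 fun k => mem_powersetCard.2 ⟨h1 k, rfl⟩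
    · refine (Sd_card F μ A (mOf u) k).trans ?_
      rw [mOf]
      push_cast
      exact sum_le_sum_of_subset_of_nonneg (subset_univ _) fun _ _ _ => by positivity
  · intro U hU
    simp only [mem_filter, Rz, mem_univ, true_and] at hU
    obtain ⟨⟨k, hk⟩, -⟩ := hU
    refine mem_erase.2 ⟨fun h => ?_, Fintype.mem_piFinset.2 fun k =>
      mem_range.2 (Nat.lt_succ_of_le (card_le_univ _))⟩
    exact hk.card_pos.ne' (congrFun h k)

end Vale.Agent.P034
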