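import Mathlib

namespace Vale.Agent.P034

open Finset

variable {X : Type} [Fintype X] [DecidableEq X]

/-- `F` is `p`-small: some cover has cost at most `1 / 2`. -/
def IsSmall (F : Set (Finset X)) (p : ℝ) : Prop :=
  ∃ G : Finset (Finset X), (∀ H ∈ F, ∃ S ∈ G, S ⊆ H) ∧ ∑ S ∈ G, p ^ S.card ≤ 1 / 2

/-- Some fractional cover of `F` has cost at most `1 / 2` at `p`. -/
def IsFracSmall (F : Set (Finset X)) (p : ℝ) : Prop :=
  ∃ g : Finset X → ℝ, (∀ S, 0 ≤ g S ∧ g S ≤ 1) ∧ (∀ H ∈ F, 1 ≤ ∑ S ∈ H.powerset, g S) ∧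
    ∑ S, g S * p ^ S.card ≤ 1 / 2

/-- The expectation threshold. -/
noncomputable def q (F : Set (Finset X)) : ℝ := sSup {p | p ∈ Set.Icc (0 : ℝ) 1 ∧ IsSmall F p}

/-- The fractional expectation threshold. -/
noncomputable def qf (F : Set (Finset X)) : ℝ :=
  sSup {p | p ∈ Set.Icc (0 : ℝ) 1 ∧ IsFracSmall F p}

end Vale.Agent.P034
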