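import Vale.Agent.P034.Count
import Vale.Agent.P034.Defs

namespace Vale.Agent.P034

open Finset

variable {X : Type} [Fintype X] [DecidableEq X] {K : ℕ}

/-- Weight of the coin flips of one element. -/
def wt (p : Fin K → ℝ) (b : Fin K → Bool) : ℝ := ∏ k, if b k then p k else 1 - p k

def Pr (p : Fin K → ℝ) (ω : X → Fin K → Bool) : ℝ := ∏ x, wt p (ω x)

theorem wt_nonneg {p : Fin K → ℝ} (hp : ∀ k, 0 ≤ p k ∧ p k ≤ 1) (b : Fin K → Bool) :
    0 ≤ wt p b := prod_nonneg fun k _ => by split_ifs <;> linarith [hp k]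

omit [DecidableEq X] in
theorem Pr_nonneg {p : Fin K → ℝ} (hp : ∀ k, 0 ≤ p k ∧ p k ≤ 1) (ω : X → Fin K → Bool) :
    0 ≤ Pr p ω := prod_nonneg fun _ _ => wt_nonneg hp _

theorem sum_wt (p : Fin K → ℝ) : ∑ b, wt p b = 1 := by
  unfold wt
  rw [← Fintype.piFinset_univ, ← prod_univ_sum (fun _ => univ)
    fun k (t : Bool) => if t then p k else 1 - p k]
  simp

theorem sum_wt_ite (p : Fin K → ℝ) (j : Fin K) :
    ∑ b, wt p b * (if b j then 1 else 0) = p j := by
  have e : ∀ b : Fin K → Bool, wt p b * (if b j then 1 else 0) =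
      ∏ k, ((if b k then p k else 1 - p k) * if k = j then (if b k then 1 else 0) else 1) := by
    intro b
    rw [prod_mul_distrib, wt]
    simp
  simp only [e]
  rw [← Fintype.piFinset_univ, ← prod_univ_sum (fun _ => univ) fun k (t : Bool) =>
    (if t then p k else 1 - p k) * if k = j then (if t then 1 else 0) else 1,
    prod_eq_single j] <;> simp +contextual

theorem sum_Pr_prod (p : Fin K → ℝ) (h : X → (Fin K → Bool) → ℝ) :
    ∑ ω : X → Fin K → Bool, Pr p ω * ∏ x, h x (ω x) = ∏ x, ∑ b, wt p b * h x b := by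
  simp only [Pr, ← prod_mul_distrib]
  rw [← Fintype.piFinset_univ, ← prod_univ_sum (fun _ => univ) fun x b => wt p b * h x b]

theorem sum_Pr (p : Fin K → ℝ) : ∑ ω : X → Fin K → Bool, Pr p ω = 1 := by
  simpa [sum_wt] using sum_Pr_prod (X := X) p fun _ _ => 1

/-- Elements seen at some level up to `k`. -/
def A0 (ω : X → Fin K → Bool) (k : Fin K) : Finset X :=
  univ.filter fun x => ∃ j ≤ k, ω x j = true

def enc (ω : X → Fin K → Bool) (U : Fin K → Finset X) : X → Fin K → Bool :=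
  fun x k => ω x k || decide (x ∈ U k)

def Good (F : Set (Finset X)) (μ : Finset X → X → ℝ) (ω : X → Fin K → Bool) : Prop :=
  ∃ H' ∈ F, ∀ k, ∑ x ∈ (A0 ω k)ᶜ, μ H' x ≤ dl k * ∑ x, μ H' x

open Classical in
noncomputable def R0 (F : Set (Finset X)) (μ : Finset X → X → ℝ) (ω : X → Fin K → Bool) :
    Finset (Fin K → Finset X) :=
  univ.filter fun U => (∀ j k, j ≠ k → Disjoint (U j) (U k)) ∧ (∀ k, ∀ x ∈ U k, ω x k = false) ∧
    U ∈ Rz F μ (A0 (enc ω U))

theorem cover_of_bad (F : Set (Finset X)) (μ : Finset X → X → ℝ) (hμ : ∀ H x, 0 ≤ μ H x)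
    (hsupp : ∀ H x, 0 < μ H x → x ∈ H) {ω : X → Fin K → Bool} (hbad : ¬ Good F μ ω)
    {H : Finset X} (hH : H ∈ F) : ∃ U ∈ R0 F μ ω, univ.biUnion U ⊆ H := by
  classical
  obtain ⟨l, h1, ⟨x0, h2⟩, h3⟩ := exists_levels F μ hμ hsupp (A0 ω) hH hbad
  let U : Fin K → Finset X := fun k => univ.filter fun x => l x = k
  have hU : ∀ k x, x ∈ U k ↔ l x = k := fun k x => by simp [U]
  have e1 : A0 (enc ω U) = fun k => A0 ω k ∪ lev l k := by
    funext k
    ext x
    simp only [A0, enc, lev, mem_filter, mem_univ, true_and, mem_union, Bool.or_eq_true,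
      decide_eq_true_eq, hU]
    constructor
    · rintro ⟨j, hj, h | h⟩
      · exact Or.inl ⟨j, hj, h⟩
      · exact Or.inr (h ▸ hj)
    · rintro (⟨j, hj, h⟩ | h)
      · exact ⟨j, hj, Or.inl h⟩
      · exact ⟨⟨l x, lt_of_le_of_lt h k.2⟩, h, Or.inr rfl⟩
  have hdisj : ∀ j k, j ≠ k → Disjoint (U j) (U k) := fun j k hjk =>
    disjoint_left.2 fun x hj hk => hjk (Fin.ext (((hU _ _).1 hj).symm.trans ((hU _ _).1 hk)))
  have e2 : (mOf fun j => (U j).card) = fun k : Fin K => (lev l k).card := by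
    funext k
    rw [mOf, ← card_biUnion fun j _ k _ h => hdisj j k h]
    congr 1
    ext x
    simp only [mem_biUnion, mem_Iic, hU, lev, mem_filter, mem_univ, true_and]
    constructor
    · rintro ⟨j, hj, h⟩
      exact h ▸ hj
    · intro h
      exact ⟨⟨l x, lt_of_le_of_lt h k.2⟩, h, rfl⟩
  refine ⟨U, ?_, fun x hx => ?_⟩
  · simp only [R0, Rz, mem_filter, mem_univ, true_and, e1, e2]
    refine ⟨hdisj, fun k x hx => ?_, ⟨⟨l x0, h2⟩, x0, (hU _ _).2 rfl⟩,
      fun k x hx => (h3 k x ((hU _ _).1 hx)).2⟩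
    have := (h3 k x ((hU _ _).1 hx)).1
    simp only [A0, mem_filter, mem_univ, true_and, not_exists, not_and] at this
    simpa using this k le_rfl
  · obtain ⟨k, -, hk⟩ := mem_biUnion.1 hx
    exact h1 x (((hU _ _).1 hk).symm ▸ k.2)

theorem half_lt_of_bad (F : Set (Finset X)) (μ : Finset X → X → ℝ) (hμ : ∀ H x, 0 ≤ μ H x)
    (hsupp : ∀ H x, 0 < μ H x → x ∈ H) {q : ℝ} (hq : 0 ≤ q) (hF : ¬ IsSmall F q)
    {ω : X → Fin K → Bool} (hbad : ¬ Good F μ ω) :
    1 / 2 ≤ ∑ U ∈ R0 F μ ω, ∏ k, q ^ (U k).card := by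
  classical
  by_contra hc
  push Not at hc
  refine hF ⟨(R0 F μ ω).image fun U => univ.biUnion U, fun H hH => ?_, ?_⟩
  · obtain ⟨U, hU, h⟩ := cover_of_bad F μ hμ hsupp hbad hH
    exact ⟨_, mem_image_of_mem _ hU, h⟩
  · refine le_trans ?_ hc.le
    refine (sum_image_le_of_nonneg fun _ _ => by positivity).trans (le_of_eq ?_)
    refine sum_congr rfl fun U hU => ?_
    simp only [R0, mem_filter] at hU
    rw [card_biUnion fun j _ k _ h => hU.2.1 j k h, prod_pow_eq_pow_sum]

theorem prod_pow_card (U : Fin K → Finset X) (c : Fin K → ℝ) :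
    ∏ k, c k ^ (U k).card = ∏ x, ∏ k, if x ∈ U k then c k else 1 := by
  rw [prod_comm]
  refine prod_congr rfl fun k _ => ?_
  rw [prod_ite_mem, univ_inter, prod_const]

theorem bad_bound (F : Set (Finset X)) (μ : Finset X → X → ℝ) {q : ℝ} (hq : 0 ≤ q)
    {p : Fin K → ℝ} (hp : ∀ k, p k = 256 ^ (k.val + 1) * q) (hp1 : ∀ k, p k ≤ 1) :
    ∑ ω, Pr p ω * ∑ U ∈ R0 F μ ω, ∏ k : Fin K, q ^ (U k).card ≤ 1 / 9 := by
  classical
  have hp' : ∀ k, 0 ≤ p k ∧ p k ≤ 1 := fun k => ⟨by rw [hp]; positivity, hp1 k⟩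
  have h1 : ∑ z, Pr p z * ∑ U ∈ Rz F μ (A0 z),
      ∏ k : Fin K, ((1 / 256 : ℝ) ^ (k.val + 1)) ^ (U k).card ≤ 1 / 9 := by
    refine (sum_le_sum fun z _ => mul_le_mul_of_nonneg_left (count_bound F μ (A0 z))
      (Pr_nonneg hp' z)).trans ?_
    rw [← sum_mul, sum_Pr, one_mul]
  refine le_trans ?_ h1
  simp only [mul_sum]
  rw [sum_comm' (t' := univ) (s' := fun U => univ.filter fun ω => U ∈ R0 F μ ω) (by simp),
    sum_comm' (t' := univ) (s' := fun U => univ.filter fun z => U ∈ Rz F μ (A0 z)) (by simp)]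
  refine sum_le_sum fun U _ => ?_
  have hinj : Set.InjOn (fun ω => enc ω U) (univ.filter fun ω => U ∈ R0 F μ ω : Finset _) := by
    intro ω hω ω' hω' h
    simp only [R0, coe_filter, mem_filter, mem_univ, true_and, Set.mem_setOf_eq] at hω hω'
    funext x k
    by_cases hx : x ∈ U k
    · rw [hω.2.1 k x hx, hω'.2.1 k x hx]
    · simpa [enc, hx] using congrFun (congrFun h x) k
  calc _ ≤ ∑ ω ∈ univ.filter fun ω => U ∈ R0 F μ ω, Pr p (enc ω U) *
        ∏ k : Fin K, ((1 / 256 : ℝ) ^ (k.val + 1)) ^ (U k).card := by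
        refine sum_le_sum fun ω hω => ?_
        simp only [R0, mem_filter, mem_univ, true_and] at hω
        simp only [prod_pow_card, Pr, wt, ← prod_mul_distrib]
        refine prod_le_prod (fun x _ => prod_nonneg fun k _ => ?_) fun x _ =>
          prod_le_prod (fun k _ => ?_) fun k _ => ?_
        · have := hp' k
          refine mul_nonneg ?_ ?_ <;> split_ifs <;> linarith
        · have := hp' k
          refine mul_nonneg ?_ ?_ <;> split_ifs <;> linarith
        · by_cases hx : x ∈ U k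
          · simp only [enc, hx, hω.2.1 k x hx, if_true, decide_true, Bool.or_true,
              Bool.false_eq_true, if_false]
            have e : p k * (1 / 256) ^ (k.val + 1) = q := by
              rw [hp, mul_right_comm, ← mul_pow]; norm_num
            nlinarith [hp' k]
          · simp [enc, hx]
    _ = ∑ z ∈ (univ.filter fun ω => U ∈ R0 F μ ω).image fun ω => enc ω U, Pr p z *
        ∏ k : Fin K, ((1 / 256 : ℝ) ^ (k.val + 1)) ^ (U k).card :=
        (sum_image (f := fun z => Pr p z *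
          ∏ k : Fin K, ((1 / 256 : ℝ) ^ (k.val + 1)) ^ (U k).card) hinj).symm
    _ ≤ _ := by
        refine sum_le_sum_of_subset_of_nonneg (fun z hz => ?_) fun z _ _ =>
          mul_nonneg (Pr_nonneg hp' z) (by positivity)
        obtain ⟨ω, hω, rfl⟩ := mem_image.1 hz
        simp only [R0, mem_filter, mem_univ, true_and] at hω ⊢
        exact hω.2.2

/-- The test function. -/
noncomputable def yy (b : Fin K → Bool) : ℝ :=
  ∑ k, (1 / 512) ^ (k.val + 1) * (if b k then 1 else 0) + (1 / 512) ^ (K + 1)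

theorem yy_nonneg (b : Fin K → Bool) : 0 ≤ yy b := by
  unfold yy
  refine add_nonneg (sum_nonneg fun k _ => ?_) (by positivity)
  split_ifs <;> positivity

noncomputable def zz (b : Fin K → Bool) : ℝ := 512 ^ 3 * yy b

theorem sum_wt_yy {q : ℝ} (hq : 0 ≤ q) {p : Fin K → ℝ} (hp : ∀ k, p k = 256 ^ (k.val + 1) * q)
    (hK : 1 ≤ 256 ^ (K + 1) * q) : ∑ b, wt p b * yy b ≤ q := by
  simp only [yy, mul_add, sum_add_distrib, mul_sum, mul_left_comm (wt p _)]
  rw [sum_comm, ← sum_mul, sum_wt, one_mul]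
  simp only [← mul_sum, sum_wt_ite, hp]
  have e : ∀ n : ℕ, (1 / 512 : ℝ) ^ n * (256 ^ n * q) = (1 / 2) ^ n * q := fun n => by
    rw [← mul_assoc, ← mul_pow]; norm_num
  have e2 : ∀ n, ∑ k ∈ range n, (1 / 2 : ℝ) ^ (k + 1) = 1 - (1 / 2) ^ n := fun n => by
    induction n with
    | zero => simp
    | succ n ih => rw [sum_range_succ, ih]; ring
  simp only [e, ← sum_mul]
  rw [Fin.sum_univ_eq_sum_range (fun k => (1 / 2 : ℝ) ^ (k + 1)), e2]
  have h1 := mul_le_mul_of_nonneg_left hK (show (0 : ℝ) ≤ (1 / 512) ^ (K + 1) by positivity)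
  rw [e, mul_one, pow_succ (1 / 2 : ℝ)] at h1
  have : (0 : ℝ) ≤ (1 / 2) ^ K * q := by positivity
  nlinarith

theorem exists_lev (ω : X → Fin K → Bool) (x : X) :
    ∃ m : ℕ, (1 / 512 : ℝ) ^ (m + 1) ≤ yy (ω x) ∧
      (m : ℝ) ≤ ∑ k, if x ∈ A0 ω k then 0 else 1 := by
  classical
  by_cases h : ∃ j, ω x j = true
  · obtain ⟨j, hj, hmin⟩ := (univ.filter fun j => ω x j = true).exists_min_image id
      (by obtain ⟨j, hj⟩ := h; exact ⟨j, by simpa using hj⟩)
    simp only [mem_filter, mem_univ, true_and, id] at hj hmin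
    refine ⟨j, ?_, ?_⟩
    · have := single_le_sum (f := fun k : Fin K =>
        (1 / 512 : ℝ) ^ (k.val + 1) * (if ω x k then 1 else 0))
        (fun k _ => by split_ifs <;> positivity) (mem_univ j)
      simp only [hj, if_true, mul_one] at this
      have h2 : (0 : ℝ) ≤ (1 / 512) ^ (K + 1) := by positivity
      unfold yy
      linarith
    · have : ∑ k ∈ Iio j, (1 : ℝ) ≤ ∑ k, if x ∈ A0 ω k then 0 else 1 := by
        refine le_trans (le_of_eq (sum_congr rfl fun k hk => ?_))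
          (sum_le_sum_of_subset_of_nonneg (subset_univ (Iio j)) fun _ _ _ => by
            split_ifs <;> norm_num)
        rw [if_neg]
        simp only [A0, mem_filter, mem_univ, true_and, not_exists, not_and]
        intro i hi h'
        exact absurd (lt_of_le_of_lt hi (mem_Iio.1 hk)) (not_lt.2 (hmin i h'))
      simpa using this
  · refine ⟨K, ?_, ?_⟩
    · unfold yy
      refine le_add_of_nonneg_left (sum_nonneg fun k _ => ?_)
      split_ifs <;> positivity
    · push Not at h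
      simp [A0, h]

/-- The weights induced by a fractional cover. -/
noncomputable def mu (g : Finset X → ℝ) (H : Finset X) (x : X) : ℝ :=
  ∑ S ∈ H.powerset, if x ∈ S then g S / S.card else 0

theorem sum_mu_mul (g : Finset X → ℝ) (H : Finset X) (t : X → ℝ) :
    ∑ x, mu g H x * t x = ∑ S ∈ H.powerset, g S / S.card * ∑ x ∈ S, t x := by
  simp only [mu, sum_mul, ite_mul, zero_mul]
  rw [sum_comm]
  refine sum_congr rfl fun S _ => ?_
  rw [sum_ite_mem, univ_inter, mul_sum]

theorem good_bound {F : Set (Finset X)} {g : Finset X → ℝ} (hg : ∀ S, 0 ≤ g S)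
    (hcov : ∀ H ∈ F, 1 ≤ ∑ S ∈ H.powerset, g S) (h0 : g ∅ ≤ 1 / 2) {ω : X → Fin K → Bool}
    (hω : Good F (mu g) ω) :
    1 / 4 ≤ ∑ S ∈ univ.erase ∅, g S * ∏ x ∈ S, zz (ω x) := by
  classical
  obtain ⟨H, hH, h⟩ := hω
  choose m hm1 hm2 using exists_lev ω
  have hmu : ∀ x, 0 ≤ mu g H x := fun x => sum_nonneg fun S _ => by
    have := hg S
    split_ifs <;> positivity
  have e1 : ∑ x, mu g H x = ∑ S ∈ H.powerset.erase ∅, g S := by
    have := sum_mu_mul g H fun _ => 1
    simp only [mul_one, sum_const, nsmul_eq_mul] at this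
    rw [this, ← add_sum_erase _ _ (empty_mem_powerset H)]
    simp only [card_empty, Nat.cast_zero, mul_zero, zero_add]
    refine sum_congr rfl fun S hS => ?_
    have : (S.card : ℝ) ≠ 0 := by simpa using (mem_erase.1 hS).1
    field_simp
  have e2 : 1 / 2 ≤ ∑ S ∈ H.powerset.erase ∅, g S := by
    have := hcov H hH
    rw [← add_sum_erase _ _ (empty_mem_powerset H)] at this
    linarith
  have e3 : ∑ x, mu g H x * m x ≤ ∑ x, mu g H x := by
    calc _ ≤ ∑ x, mu g H x * ∑ k, if x ∈ A0 ω k then 0 else 1 :=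
          sum_le_sum fun x _ => mul_le_mul_of_nonneg_left (hm2 x) (hmu x)
      _ = ∑ k, ∑ x ∈ (A0 ω k)ᶜ, mu g H x := by
          simp only [mul_sum]
          rw [sum_comm]
          refine sum_congr rfl fun k _ => ?_
          rw [← univ_inter (A0 ω k)ᶜ, ← sum_ite_mem]
          refine sum_congr rfl fun x _ => ?_
          by_cases hx : x ∈ A0 ω k <;> simp [hx]
      _ ≤ ∑ k : Fin K, dl k * ∑ x, mu g H x := sum_le_sum fun k _ => h k
      _ ≤ _ := by
          rw [← sum_mul]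
          nlinarith [sum_dl_le K, sum_nonneg fun x (_ : x ∈ univ) => hmu x]
  rw [sum_mu_mul, ← add_sum_erase _ _ (empty_mem_powerset H), sum_empty, mul_zero, zero_add,
    e1] at e3
  have e4 : ∀ S ∈ H.powerset.erase ∅, g S - (g S / S.card * ∑ x ∈ S, (m x : ℝ)) / 2 ≤
      g S * ∏ x ∈ S, zz (ω x) := by
    intro S hS
    have hc : (0 : ℝ) < S.card := by
      exact_mod_cast card_pos.2 (nonempty_iff_ne_empty.2 (mem_erase.1 hS).1)
    have hP : 0 ≤ ∏ x ∈ S, zz (ω x) :=
      prod_nonneg fun x _ => mul_nonneg (by norm_num) (yy_nonneg _)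
    have hs : 0 ≤ ∑ x ∈ S, (m x : ℝ) := by positivity
    have hgS := hg S
    by_cases hle : ∑ x ∈ S, m x ≤ 2 * S.card
    · have h1 : 1 ≤ ∏ x ∈ S, zz (ω x) := by
        refine le_trans ?_ (prod_le_prod (f := fun x => (512 : ℝ) ^ 3 * (1 / 512) ^ (m x + 1))
          (fun x _ => by positivity) fun x _ => mul_le_mul_of_nonneg_left (hm1 x) (by norm_num))
        rw [prod_mul_distrib, prod_const, prod_pow_eq_pow_sum, sum_add_distrib, ← pow_mul,
          one_div, inv_pow, ← div_eq_mul_inv, one_le_div (by positivity)]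
        refine pow_le_pow_right₀ (by norm_num) ?_
        simp only [sum_const, smul_eq_mul, mul_one]
        omega
      have : 0 ≤ g S / S.card * ∑ x ∈ S, (m x : ℝ) := by positivity
      nlinarith
    · have h1 : 2 * (S.card : ℝ) ≤ ∑ x ∈ S, (m x : ℝ) := by exact_mod_cast (not_le.1 hle).le
      have h2 : g S / S.card * (2 * S.card) ≤ g S / S.card * ∑ x ∈ S, (m x : ℝ) :=
        mul_le_mul_of_nonneg_left h1 (by positivity)
      have h3 : g S / S.card * (2 * S.card) = 2 * g S := by field_simp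
      nlinarith [mul_nonneg hgS hP]
  have e5 := sum_le_sum e4
  rw [sum_sub_distrib, ← sum_div] at e5
  refine le_trans (by linarith) (e5.trans (sum_le_sum_of_subset_of_nonneg
    (erase_subset_erase _ (subset_univ _)) fun S _ _ => mul_nonneg (hg S)
      (prod_nonneg fun x _ => mul_nonneg (by norm_num) (yy_nonneg _))))

theorem small_of_frac {F : Set (Finset X)} {p : ℝ} (hp0 : 0 < p) (hp1 : p ≤ 1)
    (h : IsFracSmall F p) : IsSmall F (p / (3 * 512 ^ 3)) := by
  classical
  obtain ⟨g, hg, hcov, hw⟩ := h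
  by_contra hF
  set q := p / (3 * 512 ^ 3) with hq
  have hq0 : 0 < q := by positivity
  have hex : ∃ K : ℕ, 1 < 256 ^ (K + 1) * q := by
    obtain ⟨n, hn⟩ := pow_unbounded_of_one_lt (1 / q) (show (1 : ℝ) < 256 by norm_num)
    rw [div_lt_iff₀ hq0] at hn
    refine ⟨n, hn.trans_le (mul_le_mul_of_nonneg_right
      (pow_le_pow_right₀ (by norm_num) (by omega)) hq0.le)⟩
  obtain ⟨K, hK1, hK2⟩ : ∃ K : ℕ, 1 < 256 ^ (K + 1) * q ∧ ∀ k < K, 256 ^ (k + 1) * q ≤ 1 :=
    ⟨Nat.find hex, Nat.find_spec hex, fun k hk => not_lt.1 (Nat.find_min hex hk)⟩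
  obtain ⟨π, hπe⟩ : ∃ π : Fin K → ℝ, ∀ k, π k = 256 ^ (k.val + 1) * q := ⟨_, fun _ => rfl⟩
  have hπ1 : ∀ k, π k ≤ 1 := fun k => hπe k ▸ hK2 _ k.2
  have hπ : ∀ k, 0 ≤ π k ∧ π k ≤ 1 := fun k => ⟨by rw [hπe]; positivity, hπ1 k⟩
  have hmu : ∀ H x, 0 ≤ mu g H x := fun H x => sum_nonneg fun S _ => by
    have := (hg S).1
    split_ifs <;> positivity
  have hsupp : ∀ H x, 0 < mu g H x → x ∈ H := fun H x hx => by
    by_contra h
    rw [mu, sum_eq_zero fun S hS => if_neg fun h' => h (mem_powerset.1 hS h')] at hx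
    exact lt_irrefl _ hx
  have hw' := hw
  rw [← add_sum_erase _ _ (mem_univ ∅)] at hw'
  have hnn : 0 ≤ ∑ S ∈ univ.erase ∅, g S * p ^ S.card :=
    sum_nonneg fun S _ => mul_nonneg (hg S).1 (by positivity)
  simp only [card_empty, pow_zero, mul_one] at hw'
  have h1 := bad_bound F (mu g) hq0.le hπe hπ1
  have h2 : ∑ ω, Pr π ω * ∑ S ∈ univ.erase ∅, g S * ∏ x ∈ S, zz (ω x) ≤ 1 / 6 := by
    simp only [mul_sum, mul_left_comm (Pr π _)]
    rw [sum_comm]
    have : ∀ S ∈ univ.erase (∅ : Finset X), ∑ ω, g S * (Pr π ω * ∏ x ∈ S, zz (ω x)) ≤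
        1 / 3 * (g S * p ^ S.card) := by
      intro S hS
      rw [← mul_sum, mul_left_comm]
      refine mul_le_mul_of_nonneg_left ?_ (hg S).1
      have e := sum_Pr_prod π fun x b => if x ∈ S then zz b else 1
      simp only [prod_ite_mem, univ_inter] at e
      rw [e]
      have e2 : ∀ x, ∑ b, wt π b * (if x ∈ S then zz b else 1) ≤
          if x ∈ S then p / 3 else 1 := fun x => by
        split_ifs
        · simp only [zz, mul_left_comm (wt π _), ← mul_sum]
          have := sum_wt_yy hq0.le hπe hK1.le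
          rw [hq] at this
          linarith
        · simp [sum_wt]
      refine (prod_le_prod (fun x _ => sum_nonneg fun b _ => mul_nonneg (wt_nonneg hπ b) ?_)
        fun x _ => e2 x).trans ?_
      · split_ifs
        · exact mul_nonneg (by norm_num) (yy_nonneg _)
        · norm_num
      · rw [prod_ite_mem, univ_inter, prod_const, div_pow]
        obtain ⟨n, hn⟩ := Nat.exists_eq_succ_of_ne_zero
          (card_ne_zero.2 (nonempty_iff_ne_empty.2 (mem_erase.1 hS).1))
        have h3 : (3 : ℝ) ^ 1 ≤ 3 ^ S.card := pow_le_pow_right₀ (by norm_num) (by omega)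
        rw [div_le_iff₀ (by positivity)]
        have : 0 < p ^ S.card := by positivity
        nlinarith
    refine (sum_le_sum this).trans ?_
    rw [← mul_sum]
    linarith [(hg ∅).1]
  have h3 : ∀ ω : X → Fin K → Bool, Pr π ω * 1 ≤
      2 * (Pr π ω * ∑ U ∈ R0 F (mu g) ω, ∏ k : Fin K, q ^ (U k).card) +
      4 * (Pr π ω * ∑ S ∈ univ.erase ∅, g S * ∏ x ∈ S, zz (ω x)) := by
    intro ω
    have a1 : 0 ≤ ∑ U ∈ R0 F (mu g) ω, ∏ k : Fin K, q ^ (U k).card := by positivity
    have a2 : 0 ≤ ∑ S ∈ univ.erase ∅, g S * ∏ x ∈ S, zz (ω x) :=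
      sum_nonneg fun S _ => mul_nonneg (hg S).1
        (prod_nonneg fun x _ => mul_nonneg (by norm_num) (yy_nonneg _))
    have a3 := Pr_nonneg hπ ω
    by_cases hω : Good F (mu g) ω
    · have := good_bound (fun S => (hg S).1) hcov (by linarith) hω
      linarith [mul_nonneg a3 a1, mul_le_mul_of_nonneg_left this a3]
    · have := half_lt_of_bad F (mu g) hmu hsupp hq0.le hF hω
      linarith [mul_nonneg a3 a2, mul_le_mul_of_nonneg_left this a3]
  have h4 := sum_le_sum fun ω (_ : ω ∈ univ) => h3 ω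
  rw [sum_add_distrib, ← mul_sum, ← mul_sum, ← sum_mul, sum_Pr] at h4
  linarith

theorem qf_le (F : Set (Finset X)) : qf F ≤ 3 * 512 ^ 3 * q F := by
  have h0 : 0 ≤ q F := Real.sSup_nonneg fun p hp => hp.1.1
  refine Real.sSup_le (fun p hp => ?_) (by positivity)
  rcases hp.1.1.eq_or_lt with h | h
  · rw [← h]; positivity
  · have : p / (3 * 512 ^ 3) ≤ q F := le_csSup ⟨1, fun r hr => hr.1.2⟩
      ⟨⟨by positivity, by rw [div_le_one (by norm_num)]; linarith [hp.1.2]⟩,
        small_of_frac h hp.1.2 hp.2⟩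
    rw [div_le_iff₀ (by norm_num)] at this
    linarith

end Vale.Agent.P034
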